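import Mathlib

/-!
# Relative size of sets with finite symmetric difference
-/

namespace Vale.Agent.Lib.P068

open Set

variable {α : Type*} {J J' J'' W W' : Set α} {s y : α} {a b n : ℕ}

/-- `J'` agrees with `J` outside a finite window, in which it has `n` more elements. -/
def Exc (J J' : Set α) (n : ℕ) : Prop :=
  ∃ W : Set α, W.Finite ∧ J' \ W = J \ W ∧ (J' ∩ W).ncard = (J ∩ W).ncard + n

lemma ncard_inter_window (hW' : W'.Finite) (hWW' : W ⊆ W') :
    (J ∩ W').ncard = (J ∩ W).ncard + ((J \ W) ∩ W').ncard := by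
  have h1 : J ∩ W' = (J ∩ W) ∪ ((J \ W) ∩ W') := by
    ext z
    simp only [mem_inter_iff, mem_union, mem_sdiff]
    constructor
    · rintro ⟨hz, hzW⟩
      by_cases hzw : z ∈ W
      · exact Or.inl ⟨hz, hzw⟩
      · exact Or.inr ⟨⟨hz, hzw⟩, hzW⟩
    · rintro (⟨hz, hzw⟩ | ⟨⟨hz, _⟩, hzW⟩)
      · exact ⟨hz, hWW' hzw⟩
      · exact ⟨hz, hzW⟩
  rw [h1]
  apply ncard_union_eq
  · rw [Set.disjoint_left]
    rintro z ⟨_, hzw⟩ ⟨⟨_, hzn⟩, _⟩
    exact hzn hzw
  · exact (hW'.subset hWW').inter_of_right _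
  · exact hW'.inter_of_right _

lemma exc_enlarge (hW : J' \ W = J \ W) (hn : (J' ∩ W).ncard = (J ∩ W).ncard + n)
    (hW' : W'.Finite) (hWW' : W ⊆ W') :
    J' \ W' = J \ W' ∧ (J' ∩ W').ncard = (J ∩ W').ncard + n := by
  constructor
  · have h1 : J' \ W' = (J' \ W) \ W' := by
      ext z
      simp only [mem_sdiff]
      exact ⟨fun h => ⟨⟨h.1, fun hz => h.2 (hWW' hz)⟩, h.2⟩, fun h => ⟨h.1.1, h.2⟩⟩
    have h2 : J \ W' = (J \ W) \ W' := by
      ext z
      simp only [mem_sdiff]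
      exact ⟨fun h => ⟨⟨h.1, fun hz => h.2 (hWW' hz)⟩, h.2⟩, fun h => ⟨h.1.1, h.2⟩⟩
    rw [h1, h2, hW]
  · rw [ncard_inter_window (J := J') hW' hWW', ncard_inter_window (J := J) hW' hWW', hW, hn]
    omega

lemma exc_refl (J : Set α) : Exc J J 0 := ⟨∅, finite_empty, rfl, by simp⟩

lemma exc_trans (h1 : Exc J J' a) (h2 : Exc J' J'' b) : Exc J J'' (a + b) := by
  obtain ⟨W1, hf1, hd1, hc1⟩ := h1
  obtain ⟨W2, hf2, hd2, hc2⟩ := h2
  have hf : (W1 ∪ W2).Finite := hf1.union hf2
  obtain ⟨e1, c1⟩ := exc_enlarge hd1 hc1 hf subset_union_left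
  obtain ⟨e2, c2⟩ := exc_enlarge hd2 hc2 hf subset_union_right
  exact ⟨W1 ∪ W2, hf, e2.trans e1, by omega⟩

lemma exc_insert (hs : s ∉ J) : Exc J (insert s J) 1 := by
  refine ⟨{s}, finite_singleton s, ?_, ?_⟩
  · ext z
    simp only [mem_sdiff, mem_insert_iff, mem_singleton_iff]
    tauto
  · have h1 : insert s J ∩ {s} = {s} := by
      ext z
      simp only [mem_inter_iff, mem_insert_iff, mem_singleton_iff]
      tauto
    have h2 : J ∩ {s} = ∅ := by
      ext z
      simp only [mem_inter_iff, mem_singleton_iff, mem_empty_iff_false, iff_false, not_and]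
      rintro hz rfl
      exact hs hz
    rw [h1, h2]
    simp

lemma exc_swap (hs : s ∉ J) (hy : y ∈ J) : Exc J (insert s (J \ {y})) 0 := by
  have hne : s ≠ y := fun h => hs (h ▸ hy)
  refine ⟨{s, y}, (finite_singleton y).insert s, ?_, ?_⟩
  · ext z
    simp only [mem_sdiff, mem_insert_iff, mem_singleton_iff]
    tauto
  · have h1 : insert s (J \ {y}) ∩ {s, y} = {s} := by
      ext z
      simp only [mem_inter_iff, mem_insert_iff, mem_singleton_iff, mem_sdiff]
      constructor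
      · rintro ⟨h | h, h' | h'⟩
        · exact h
        · exact h
        · exact h'
        · exact absurd h' h.2
      · rintro rfl
        exact ⟨Or.inl rfl, Or.inl rfl⟩
    have h2 : J ∩ {s, y} = {y} := by
      ext z
      simp only [mem_inter_iff, mem_insert_iff, mem_singleton_iff]
      constructor
      · rintro ⟨h, rfl | h'⟩
        · exact absurd h hs
        · exact h'
      · rintro rfl
        exact ⟨hy, Or.inr rfl⟩
    rw [h1, h2]
    simp

end Vale.Agent.Lib.P068
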