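import Vale.Agent.Lib.P068.Walks
import Vale.Agent.Lib.P068.Excess

/-!
# Augmenting along a shortest walk
-/

namespace Vale.Agent.Lib.P068

open Set Matroid

variable {α : Type*} {M N : Matroid α} {J : Set α} {x y s y₀ : α}

lemma closure_swap (harc : Arc N J s y₀) :
    N.closure (insert s (J \ {y₀})) = N.closure J := by
  have h1 : insert y₀ (J \ {y₀}) = J := by
    rw [insert_sdiff_singleton, insert_eq_of_mem harc.1]
  have h2 : s ∈ N.closure (insert y₀ (J \ {y₀})) \ N.closure (J \ {y₀}) := by
    rw [h1]
    exact ⟨harc.2.2.1, harc.2.2.2⟩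
  rw [closure_insert_congr h2, h1]

lemma indep_swap (hJN : N.Indep J) (harc : Arc N J s y₀) :
    N.Indep (insert s (J \ {y₀})) := by
  rw [(hJN.subset sdiff_subset).insert_indep_iff_of_notMem (fun h => harc.2.1 h.1)]
  exact ⟨mem_ground_of_mem_closure harc.2.2.1, harc.2.2.2⟩

/-- A set `insert s K` with `K ⊆ J` cannot span (in `M`) an element `x` of `M.closure J`
unless `K` already does, if `s` is not spanned by `J`. -/
lemma mem_closure_of_insert_source {K : Set α} (hs : s ∉ M.closure J) (hK : K ⊆ J)
    (hx : x ∈ M.closure J) (hxK : x ∈ M.closure (insert s K)) : x ∈ M.closure K := by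
  by_contra hcon
  have h1 : s ∈ M.closure (insert x K) := mem_closure_insert hcon hxK
  apply hs
  have h2 : M.closure (insert x K) ⊆ M.closure J := by
    have h3 : M.closure (insert x K) ⊆ M.closure (insert x J) :=
      M.closure_subset_closure (insert_subset_insert hK)
    rwa [closure_insert_eq_of_mem_closure hx] at h3
  exact h2 h1

/-- Transfer of walks from `J` to `J - y₀ + s` when `s` has no walk of length at most `l`. -/
lemma AW.transfer {l : ℕ} (hs : s ∉ M.closure J)
    (hmin : ∀ k' ≤ l, ¬ AW M N J s k') (harc : Arc N J s y₀) :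
    ∀ {x : α} {m : ℕ}, AW M N J x m → m ≤ l → AW M N (insert s (J \ {y₀})) x m := by
  intro x m h
  induction h with
  | base hE hx =>
    intro _
    exact AW.base hE (by rwa [closure_swap harc])
  | @step x y x' m' h1 h2 h3 ih =>
    intro hm
    have ih' := ih (by omega)
    -- consequences of minimality
    have F1 : ¬ Arc N J s y := fun h => hmin (m' + 1) hm (AW.step h h2 h3)
    have F2 : ¬ Arc M J x' y₀ := fun h => hmin (m' + 1) hm (AW.step harc h h3)
    have hxs : x ≠ s := by
      rintro rfl
      exact hmin (m' + 1) hm (AW.step h1 h2 h3)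
    have hx's : x' ≠ s := by
      rintro rfl
      exact hmin m' (by omega) h3
    have hyy₀ : y ≠ y₀ := by
      rintro rfl
      exact F1 harc
    have hsy : s ≠ y := fun h => harc.2.1 (h ▸ h1.1)
    have hs1 : s ∈ N.closure (J \ {y}) := by
      by_contra hcon
      exact F1 ⟨h1.1, harc.2.1, harc.2.2.1, hcon⟩
    have hx'1 : x' ∈ M.closure (J \ {y₀}) := by
      by_contra hcon
      exact F2 ⟨harc.1, h2.2.1, h2.2.2.1, hcon⟩
    have hyJ₁ : y ∈ insert s (J \ {y₀}) := Or.inr ⟨h1.1, hyy₀⟩
    have hset : insert s (J \ {y₀}) \ {y} = insert s ((J \ {y₀}) \ {y}) := by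
      ext z
      simp only [mem_sdiff, mem_insert_iff, mem_singleton_iff]
      constructor
      · rintro ⟨rfl | h, h'⟩
        · exact Or.inl rfl
        · exact Or.inr ⟨h, h'⟩
      · rintro (rfl | h)
        · exact ⟨Or.inl rfl, hsy⟩
        · exact ⟨Or.inr h.1, h.2⟩
    have hsub : (J \ {y₀}) \ {y} ⊆ J \ {y} := fun z hz => ⟨hz.1.1, hz.2⟩
    refine AW.step (y := y) (x' := x') ⟨hyJ₁, ?_, ?_, ?_⟩ ⟨hyJ₁, ?_, ?_, ?_⟩ ih'
    · rintro (h | h)
      · exact hxs h
      · exact h1.2.1 h.1
    · rw [closure_swap harc]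
      exact h1.2.2.1
    · rw [hset]
      intro hcon
      apply h1.2.2.2
      have h4 : N.closure (insert s ((J \ {y₀}) \ {y})) ⊆ N.closure (insert s (J \ {y})) :=
        N.closure_subset_closure (insert_subset_insert hsub)
      rw [closure_insert_eq_of_mem_closure hs1] at h4
      exact h4 hcon
    · rintro (h | h)
      · exact hx's h
      · exact h2.2.1 h.1
    · exact M.closure_subset_closure (subset_insert _ _) hx'1
    · rw [hset]
      intro hcon
      apply h2.2.2.2
      have h5 : x' ∈ M.closure ((J \ {y₀}) \ {y}) :=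
        mem_closure_of_insert_source hs (fun z hz => hz.1.1) h2.2.2.1 hcon
      exact M.closure_subset_closure hsub h5

/-- An augmenting walk yields a common independent set that is larger by one. -/
theorem augment : ∀ (k : ℕ) (J : Set α), M.Indep J → N.Indep J → ∀ s, s ∈ M.E →
    s ∉ M.closure J → AW M N J s k → ∃ J', M.Indep J' ∧ N.Indep J' ∧ Exc J J' 1 := by
  intro k
  induction k using Nat.strong_induction_on with
  | _ k IH =>
    intro J hJM hJN s hsE hs hw
    by_cases hshort : ∃ k' < k, AW M N J s k'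
    · obtain ⟨k', hk', hw'⟩ := hshort
      exact IH k' hk' J hJM hJN s hsE hs hw'
    · push Not at hshort
      have hsJ : s ∉ J := fun h => hs (M.mem_closure_of_mem' h hsE)
      cases hw with
      | base hE hx =>
        refine ⟨insert s J, ?_, ?_, exc_insert hsJ⟩
        · rw [hJM.insert_indep_iff_of_notMem hsJ]
          exact ⟨hsE, hs⟩
        · rw [hJN.insert_indep_iff_of_notMem hsJ]
          exact ⟨hE, hx⟩
      | @step _ y₀ x₁ l h1 h2 h3 =>
        have hmin : ∀ k' ≤ l, ¬ AW M N J s k' := fun k' hk' => hshort k' (by omega)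
        have hw₁ := AW.transfer hs hmin h1 h3 le_rfl
        have hM₁ : M.Indep (insert s (J \ {y₀})) := by
          have : M.Indep (insert s J) := by
            rw [hJM.insert_indep_iff_of_notMem hsJ]
            exact ⟨hsE, hs⟩
          exact this.subset (insert_subset_insert sdiff_subset)
        have hN₁ := indep_swap hJN h1
        have hx₁ : x₁ ∉ M.closure (insert s (J \ {y₀})) := fun hcon =>
          h2.2.2.2 (mem_closure_of_insert_source hs sdiff_subset h2.2.2.1 hcon)
        obtain ⟨J', hM', hN', hexc⟩ := IH l (by omega) _ hM₁ hN₁ x₁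
          (mem_ground_of_mem_closure h2.2.2.1) hx₁ hw₁
        exact ⟨J', hM', hN', by simpa using exc_trans (exc_swap hsJ h1.1) hexc⟩

end Vale.Agent.Lib.P068
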