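import Vale.Agent.Lib.P068.Augment

/-!
# Finite defect implies intersection
-/

namespace Vale.Agent.Lib.P068

open Set Matroid

variable {α : Type*} {M N : Matroid α} {J I I' K A W F X : Set α}

lemma encard_sdiff_le (hI : M.Indep I') (hK : K ⊆ I') (hcl : I' ⊆ M.closure (K ∪ A)) :
    (I' \ K).encard ≤ A.encard := by
  have hKi : M.Indep K := hI.subset hK
  have h1 : (M ／ K).Indep (I' \ K) := by
    rw [hKi.contract_indep_iff]
    exact ⟨disjoint_sdiff_left, by rwa [sdiff_union_of_subset hK]⟩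
  have h2 : I' \ K ⊆ (M ／ K).closure A := by
    rw [contract_closure_eq]
    intro z hz
    exact ⟨by rw [union_comm]; exact hcl hz.1, hz.2⟩
  calc (I' \ K).encard ≤ (M ／ K).eRk ((M ／ K).closure A) := h1.encard_le_eRk_of_subset h2
    _ = (M ／ K).eRk A := eRk_closure_eq _ _
    _ ≤ A.encard := eRk_le_encard _ _

lemma window_bound (hI' : M.Indep I') (hW : W.Finite) (hF : F.Finite) (hd : I' \ W = I \ W)
    (hcl : I' ⊆ M.closure (I ∪ F)) : (I' ∩ W).ncard ≤ (I ∩ W).ncard + F.ncard := by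
  have h1 : (I' \ (I' \ W)).encard ≤ ((I ∩ W) ∪ F).encard := by
    apply encard_sdiff_le hI' sdiff_subset
    have : I' \ W ∪ (I ∩ W ∪ F) = I ∪ F := by
      rw [hd, ← union_assoc, sdiff_union_inter]
    rwa [this]
  have h2 : I' \ (I' \ W) = I' ∩ W := by
    ext z
    simp only [mem_sdiff, mem_inter_iff]
    tauto
  rw [h2] at h1
  have h3 : ((I ∩ W) ∪ F).encard ≤ (I ∩ W).encard + F.encard := encard_union_le _ _
  have h4 := h1.trans h3
  rw [← (hW.inter_of_right I').cast_ncard_eq, ← (hW.inter_of_right I).cast_ncard_eq,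
    ← hF.cast_ncard_eq] at h4
  exact_mod_cast h4

lemma ncard_split (hW : W.Finite) (J X : Set α) :
    (J ∩ W).ncard = ((J ∩ X) ∩ W).ncard + ((J \ X) ∩ W).ncard := by
  have h1 : J ∩ W = ((J ∩ X) ∩ W) ∪ ((J \ X) ∩ W) := by
    ext z
    simp only [mem_inter_iff, mem_union, mem_sdiff]
    tauto
  rw [h1]
  apply ncard_union_eq
  · rw [Set.disjoint_left]
    rintro z ⟨⟨_, hz⟩, _⟩ ⟨⟨_, hz'⟩, _⟩
    exact hz' hz
  · exact hW.inter_of_right _
  · exact hW.inter_of_right _

theorem exc_bound {F₁ F₂ J' : Set α} {n : ℕ} (hF₁ : F₁.Finite) (hF₂ : F₂.Finite)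
    (hX : X ⊆ M.closure ((J ∩ X) ∪ F₁)) (hY : N.E \ X ⊆ N.closure ((J \ X) ∪ F₂))
    (hM' : M.Indep J') (hN' : N.Indep J') (h : Exc J J' n) : n ≤ F₁.ncard + F₂.ncard := by
  obtain ⟨W, hW, hd, hc⟩ := h
  have hmem : ∀ z, z ∉ W → (z ∈ J' ↔ z ∈ J) := by
    intro z hz
    have := Set.ext_iff.mp hd z
    simp only [mem_sdiff, hz, not_false_eq_true, and_true] at this
    exact this
  have b1 : ((J' ∩ X) ∩ W).ncard ≤ ((J ∩ X) ∩ W).ncard + F₁.ncard := by
    apply window_bound (hM'.subset inter_subset_left) hW hF₁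
    · ext z
      simp only [mem_sdiff, mem_inter_iff]
      constructor
      · rintro ⟨⟨h1, h2⟩, h3⟩
        exact ⟨⟨(hmem z h3).1 h1, h2⟩, h3⟩
      · rintro ⟨⟨h1, h2⟩, h3⟩
        exact ⟨⟨(hmem z h3).2 h1, h2⟩, h3⟩
    · exact inter_subset_right.trans hX
  have b2 : ((J' \ X) ∩ W).ncard ≤ ((J \ X) ∩ W).ncard + F₂.ncard := by
    apply window_bound (hN'.subset sdiff_subset) hW hF₂
    · ext z
      simp only [mem_sdiff]
      constructor
      · rintro ⟨⟨h1, h2⟩, h3⟩
        exact ⟨⟨(hmem z h3).1 h1, h2⟩, h3⟩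
      · rintro ⟨⟨h1, h2⟩, h3⟩
        exact ⟨⟨(hmem z h3).2 h1, h2⟩, h3⟩
    · exact fun z hz => hY ⟨hN'.subset_ground hz.1, hz.2⟩
  rw [ncard_split hW J' X, ncard_split hW J X] at hc
  omega

theorem main_of_bound (hE : M.E = N.E) (hJM : M.Indep J) (hJN : N.Indep J) (c : ℕ)
    (hc : ∀ J' n, M.Indep J' → N.Indep J' → Exc J J' n → n ≤ c) :
    ∃ JM JN : Set α, Disjoint JM JN ∧ M.Indep (JM ∪ JN) ∧ N.Indep (JM ∪ JN) ∧
      M.closure JM ∪ N.closure JN = M.E := by
  have key : ∀ m : ℕ, ∀ J' n, M.Indep J' → N.Indep J' → Exc J J' n → c ≤ n + m →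
      ∃ JM JN : Set α, Disjoint JM JN ∧ M.Indep (JM ∪ JN) ∧ N.Indep (JM ∪ JN) ∧
        M.closure JM ∪ N.closure JN = M.E := by
    intro m
    induction m with
    | zero =>
      intro J' n hM' hN' hexc hcn
      by_cases h : ∃ s ∈ M.E, s ∉ M.closure J' ∧ ∃ k, AW M N J' s k
      · obtain ⟨s, hsE, hs, k, hk⟩ := h
        obtain ⟨J'', hM'', hN'', hexc'⟩ := augment k J' hM' hN' s hsE hs hk
        have := hc J'' (n + 1) hM'' hN'' (exc_trans hexc hexc')
        omega
      · push Not at h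
        exact certificate hE hM' hN' h
    | succ m ih =>
      intro J' n hM' hN' hexc hcn
      by_cases h : ∃ s ∈ M.E, s ∉ M.closure J' ∧ ∃ k, AW M N J' s k
      · obtain ⟨s, hsE, hs, k, hk⟩ := h
        obtain ⟨J'', hM'', hN'', hexc'⟩ := augment k J' hM' hN' s hsE hs hk
        exact ih J'' (n + 1) hM'' hN'' (exc_trans hexc hexc') (by omega)
      · push Not at h
        exact certificate hE hM' hN' h
  exact key c J 0 hJM hJN (exc_refl J) (by omega)

/-- **Finite defect theorem.** -/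
theorem finite_defect (hE : M.E = N.E) {JM JN : Set α} (hdisj : Disjoint JM JN)
    (hM : M.Indep (JM ∪ JN)) (hN : N.Indep (JM ∪ JN)) (hF : F.Finite)
    (hcov : M.closure (JM ∪ F) ∪ N.closure (JN ∪ F) = M.E) :
    ∃ JM' JN' : Set α, Disjoint JM' JN' ∧ M.Indep (JM' ∪ JN') ∧ N.Indep (JM' ∪ JN') ∧
      M.closure JM' ∪ N.closure JN' = M.E := by
  set X := M.closure (JM ∪ F) with hXdef
  have hJMX : JM ⊆ X := fun z hz =>
    M.mem_closure_of_mem' (Or.inl hz) (hM.subset_ground (Or.inl hz))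
  have hfin : (JN ∩ X).Finite := by
    have h1 : ((JM ∪ (JN ∩ X)) \ JM).encard ≤ F.encard := by
      apply encard_sdiff_le (hM.subset (union_subset_union_right _ inter_subset_left))
        subset_union_left
      exact union_subset hJMX inter_subset_right
    have h2 : (JM ∪ (JN ∩ X)) \ JM = JN ∩ X := by
      ext z
      simp only [mem_sdiff, mem_union, mem_inter_iff]
      constructor
      · rintro ⟨h | h, h'⟩
        · exact absurd h h'
        · exact h
      · intro h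
        exact ⟨Or.inr h, fun h' => (Set.disjoint_left.mp hdisj) h' h.1⟩
    rw [h2] at h1
    exact encard_lt_top_iff.mp (lt_of_le_of_lt h1 (encard_lt_top_iff.mpr hF))
  refine main_of_bound hE hM hN (F.ncard + ((JN ∩ X) ∪ F).ncard) ?_
  intro J' n hM' hN' hexc
  refine exc_bound (X := X) hF (hfin.union hF) ?_ ?_ hM' hN' hexc
  · apply M.closure_subset_closure
    exact union_subset_union_left _ (fun z hz => ⟨Or.inl hz, hJMX hz⟩)
  · intro e he
    have heM : e ∈ M.closure (JM ∪ F) ∪ N.closure (JN ∪ F) := by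
      rw [hcov, hE]
      exact he.1
    rcases heM with h | h
    · exact absurd h he.2
    · refine N.closure_subset_closure ?_ h
      rintro z (hz | hz)
      · by_cases hzX : z ∈ X
        · exact Or.inr (Or.inl ⟨hz, hzX⟩)
        · exact Or.inl ⟨Or.inr hz, hzX⟩
      · exact Or.inr (Or.inr hz)

end Vale.Agent.Lib.P068
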