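import Mathlib

namespace Vale.Agent.Lib.P068

/-- The pair `(M, N)` satisfies intersection: some set `JM ∪ JN`, independent in both matroids,
is split into disjoint parts `JM`, `JN` whose closures (in `M`, `N` respectively) cover the
ground set. -/
def SatisfiesIntersection {α : Type*} (M N : Matroid α) : Prop :=
  ∃ JM JN : Set α, Disjoint JM JN ∧ M.Indep (JM ∪ JN) ∧ N.Indep (JM ∪ JN) ∧
    M.closure JM ∪ N.closure JN = M.E

/-- Closures in `M` exceed closures in `M'` by finite rank only: for every set `S` there is a
finite set `F` such that every element of the ground set of `M'` spanned by `S` in `M` is spanned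
by `S ∪ F` in `M'`. -/
def ClosureLe {α : Type*} (M M' : Matroid α) : Prop :=
  ∀ S : Set α, ∃ F : Set α, F.Finite ∧ M.closure S ∩ M'.E ⊆ M'.closure (S ∪ F)

/-- `N` is almost uniform: every subset of the ground set becomes independent after removing
finitely many elements, or becomes spanning after adding finitely many elements. -/
def AlmostUniform {α : Type*} (N : Matroid α) : Prop :=
  ∀ X ⊆ N.E, (∃ F : Set α, F.Finite ∧ N.Indep (X \ F)) ∨
    (∃ F : Set α, F.Finite ∧ N.closure (X ∪ F) = N.E)

/-- `J` is a strongly maximal common independent set: no common independent set differing from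
`J` in finitely many elements gains more elements than it loses. -/
def StronglyMaximal {α : Type*} (M N : Matroid α) (J : Set α) : Prop :=
  M.Indep J ∧ N.Indep J ∧ ∀ J' : Set α, M.Indep J' → N.Indep J' → (J' \ J).Finite →
    (J \ J').Finite → (J' \ J).ncard ≤ (J \ J').ncard

end Vale.Agent.Lib.P068
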