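import Vale.Agent.Lib.P068.Defect
import Vale.Agent.Lib.P068.Defs

/-!
# Classes of pairs and invariance under finite-rank minors
-/

namespace Vale.Agent.Lib.P068

open Set Matroid

variable {α : Type*} {M N M' N' : Matroid α} {A : Set α}

theorem si_of_finite_defect (hE : M.E = N.E) {JM JN F : Set α} (hdisj : Disjoint JM JN)
    (hM : M.Indep (JM ∪ JN)) (hN : N.Indep (JM ∪ JN)) (hF : F.Finite)
    (hcov : M.closure (JM ∪ F) ∪ N.closure (JN ∪ F) = M.E) : SatisfiesIntersection M N :=
  finite_defect hE hdisj hM hN hF hcov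

theorem si_of_rankFinite (hE : M.E = N.E) (hN : N.RankFinite) : SatisfiesIntersection M N := by
  obtain ⟨B, hB, hfin⟩ := hN.exists_finite_isBase
  refine si_of_finite_defect hE (JM := ∅) (JN := ∅) (F := B) (disjoint_empty _) (by simp) (by simp)
    hfin ?_
  rw [empty_union, hB.closure_eq, ← hE]
  exact union_eq_self_of_subset_left (M.closure_subset_ground _)

theorem si_of_dual_rankFinite (hE : M.E = N.E) (hN : N✶.RankFinite) :
    SatisfiesIntersection M N := by
  obtain ⟨B, hB⟩ := M.exists_isBase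
  obtain ⟨J₀, hJ₀⟩ := N.exists_isBasis B (hE ▸ hB.subset_ground)
  obtain ⟨B', hB', hJB'⟩ := hJ₀.indep.exists_isBase_superset
  have hfin : (N.E \ B').Finite := hB'.compl_isBase_dual.finite
  have hsub : B \ J₀ ⊆ N.E \ B' := by
    intro e he
    refine ⟨hE ▸ hB.subset_ground he.1, fun heB' => he.2 ?_⟩
    exact hJ₀.mem_of_insert_indep he.1 (hB'.indep.subset (insert_subset heB' hJB'))
  refine si_of_finite_defect hE (JM := J₀) (JN := ∅) (F := B \ J₀) (disjoint_empty _)
    (by simpa using hB.indep.subset hJ₀.subset) (by simpa using hJ₀.indep) (hfin.subset hsub) ?_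
  rw [union_sdiff_cancel hJ₀.subset, hB.closure_eq]
  exact union_eq_self_of_subset_right (hE ▸ N.closure_subset_ground _)

/-- `M'` (on `M.E \ A`) lifts to `M`. -/
structure Lifts (M M' : Matroid α) (A : Set α) : Prop where
  ground : M'.E = M.E \ A
  indep : ∀ I, M'.Indep I → M.Indep I
  closure : ∃ F : Set α, F.Finite ∧ ∀ S, M'.closure S ⊆ M.closure (S ∪ F)

/-- `M` drops to `M'` (on `M.E \ A`) with finite losses. -/
structure Drops (M M' : Matroid α) (A : Set α) : Prop where
  ground : M'.E = M.E \ A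
  indep : ∀ I, M.Indep I → ∃ I₀ ⊆ I, M'.Indep I₀ ∧ (I \ I₀).Finite
  closure : ∀ S, ∃ F : Set α, F.Finite ∧ M.closure S \ A ⊆ M'.closure (S ∪ F)

lemma exists_finite_closure_eq (hA : M.IsRkFinite A) :
    ∃ B : Set α, B.Finite ∧ M.closure B = M.closure A := by
  obtain ⟨B, hB, hfin⟩ := hA.exists_finite_isBasis'
  exact ⟨B, hfin, hB.closure_eq_closure⟩

lemma lifts_delete (M : Matroid α) (A : Set α) : Lifts M (M ＼ A) A where
  ground := rfl
  indep := fun _ h => h.of_delete
  closure := ⟨∅, finite_empty, fun S => by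
    rw [delete_closure_eq, union_empty]
    exact sdiff_subset.trans (M.closure_subset_closure sdiff_subset)⟩

lemma lifts_contract (hA : M.IsRkFinite A) : Lifts M (M ／ A) A where
  ground := rfl
  indep := fun _ h => h.of_contract
  closure := by
    obtain ⟨B, hfin, hB⟩ := exists_finite_closure_eq hA
    refine ⟨B, hfin, fun S => ?_⟩
    rw [contract_closure_eq, closure_union_congr_right hB]
    exact sdiff_subset

lemma finite_sdiff_of_subset_closure {I I₀ B : Set α} (hI : M.Indep I) (h₀ : I₀ ⊆ I)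
    (hB : B.Finite) (hcl : I ⊆ M.closure (I₀ ∪ B)) : (I \ I₀).Finite :=
  encard_lt_top_iff.mp (lt_of_le_of_lt (encard_sdiff_le hI h₀ hcl) (encard_lt_top_iff.mpr hB))

lemma drops_delete (hA : M.IsRkFinite A) : Drops M (M ＼ A) A where
  ground := rfl
  indep := by
    intro I hI
    refine ⟨I \ A, sdiff_subset, ?_, ?_⟩
    · rw [delete_indep_iff]
      exact ⟨hI.subset sdiff_subset, disjoint_sdiff_left⟩
    · have : I \ (I \ A) ⊆ I ∩ A := fun z hz => by
        by_contra hcon
        exact hz.2 ⟨hz.1, fun h => hcon ⟨hz.1, h⟩⟩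
      exact (hA.finite_of_indep_subset (hI.subset inter_subset_left) inter_subset_right).subset this
  closure := by
    intro S
    obtain ⟨B, hfin, hB⟩ := exists_finite_closure_eq hA
    obtain ⟨IS, hIS⟩ := M.exists_isBasis' (S \ A)
    have hIST : IS ⊆ M.closure S \ A := fun z hz =>
      ⟨M.mem_closure_of_mem' (hIS.subset hz).1 (hIS.indep.subset_ground hz), (hIS.subset hz).2⟩
    obtain ⟨B₁, hB₁, hsub⟩ := hIS.indep.subset_isBasis_of_subset hIST
      (sdiff_subset.trans (M.closure_subset_ground _))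
    have hclS : M.closure S ⊆ M.closure (IS ∪ B) := by
      rw [closure_union_congr_left hIS.closure_eq_closure, closure_union_congr_right hB]
      apply M.closure_subset_closure
      intro z hz
      by_cases hzA : z ∈ A
      · exact Or.inr hzA
      · exact Or.inl ⟨hz, hzA⟩
    refine ⟨B₁ \ IS, finite_sdiff_of_subset_closure hB₁.indep hsub hfin
      (hB₁.subset.trans (sdiff_subset.trans hclS)), ?_⟩
    rw [delete_closure_eq]
    intro z hz
    refine ⟨?_, hz.2⟩
    refine M.closure_subset_closure ?_ (hB₁.subset_closure hz)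
    intro w hw
    refine ⟨?_, (hB₁.subset hw).2⟩
    by_cases hwI : w ∈ IS
    · exact Or.inl (hIS.subset hwI).1
    · exact Or.inr ⟨hw, hwI⟩

lemma drops_contract (hA : M.IsRkFinite A) : Drops M (M ／ A) A where
  ground := rfl
  indep := by
    intro I hI
    obtain ⟨B, hfin, hB⟩ := exists_finite_closure_eq hA
    obtain ⟨I₀, hI₀⟩ := (M ／ A).exists_isBasis' I
    refine ⟨I₀, hI₀.subset, hI₀.indep, ?_⟩
    refine finite_sdiff_of_subset_closure hI hI₀.subset hfin ?_
    rw [closure_union_congr_right hB]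
    intro z hz
    by_cases hzA : z ∈ A
    · exact M.mem_closure_of_mem' (Or.inr hzA) (hI.subset_ground hz)
    · have h1 : z ∈ (M ／ A).closure I :=
        (M ／ A).mem_closure_of_mem' hz ⟨hI.subset_ground hz, hzA⟩
      rw [← hI₀.closure_eq_closure, contract_closure_eq] at h1
      exact h1.1
  closure := by
    intro S
    refine ⟨∅, finite_empty, ?_⟩
    rw [contract_closure_eq, union_empty]
    exact sdiff_subset_sdiff_left (M.closure_subset_closure subset_union_left)

theorem si_of_lifts (hE : M.E = N.E) (hM : Lifts M M' A) (hN : Lifts N N' A)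
    (hcov : ∃ F : Set α, F.Finite ∧ A ∩ M.E ⊆ M.closure F ∪ N.closure F)
    (h : SatisfiesIntersection M' N') : SatisfiesIntersection M N := by
  obtain ⟨JM, JN, hdisj, hiM, hiN, hcl⟩ := h
  obtain ⟨F₁, hF₁, hc₁⟩ := hM.closure
  obtain ⟨F₂, hF₂, hc₂⟩ := hN.closure
  obtain ⟨F₃, hF₃, hc₃⟩ := hcov
  refine si_of_finite_defect hE hdisj (hM.indep _ hiM) (hN.indep _ hiN)
    (F := F₁ ∪ F₂ ∪ F₃) ((hF₁.union hF₂).union hF₃) ?_
  apply subset_antisymm
  · exact union_subset (M.closure_subset_ground _) (hE ▸ N.closure_subset_ground _)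
  · intro e he
    by_cases heA : e ∈ A
    · rcases hc₃ ⟨heA, he⟩ with h | h
      · exact Or.inl (M.closure_subset_closure (fun z hz => Or.inr (Or.inr hz)) h)
      · exact Or.inr (N.closure_subset_closure (fun z hz => Or.inr (Or.inr hz)) h)
    · have : e ∈ M'.closure JM ∪ N'.closure JN := by
        rw [hcl, hM.ground]
        exact ⟨he, heA⟩
      rcases this with h | h
      · refine Or.inl (M.closure_subset_closure ?_ (hc₁ _ h))
        exact union_subset_union_right _ (fun z hz => Or.inl (Or.inl hz))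
      · refine Or.inr (N.closure_subset_closure ?_ (hc₂ _ h))
        exact union_subset_union_right _ (fun z hz => Or.inl (Or.inr hz))

theorem si_of_drops (hE : M.E = N.E) (hM : Drops M M' A) (hN : Drops N N' A)
    (h : SatisfiesIntersection M N) : SatisfiesIntersection M' N' := by
  obtain ⟨JM, JN, hdisj, hiM, hiN, hcl⟩ := h
  have hE' : M'.E = N'.E := by rw [hM.ground, hN.ground, hE]
  obtain ⟨I₁, hI₁, hI₁i, hI₁f⟩ := hM.indep _ hiM
  obtain ⟨I₂, hI₂, hI₂i, hI₂f⟩ := hN.indep _ (hiN.subset hI₁)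
  obtain ⟨F₁, hF₁, hc₁⟩ := hM.closure JM
  obtain ⟨F₂, hF₂, hc₂⟩ := hN.closure JN
  have hun : (JM ∩ I₂) ∪ (JN ∩ I₂) = I₂ := by
    rw [← union_inter_distrib_right]
    exact inter_eq_self_of_subset_right (hI₂.trans hI₁)
  set G := ((JM ∪ JN) \ I₁) ∪ (I₁ \ I₂) with hG
  have hGf : G.Finite := hI₁f.union hI₂f
  have hmem : ∀ z ∈ JM ∪ JN, z ∈ I₂ ∨ z ∈ G := by
    intro z hz
    by_cases h1 : z ∈ I₁
    · by_cases h2 : z ∈ I₂
      · exact Or.inl h2
      · exact Or.inr (Or.inr ⟨h1, h2⟩)
    · exact Or.inr (Or.inl ⟨hz, h1⟩)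
  refine si_of_finite_defect hE' (JM := JM ∩ I₂) (JN := JN ∩ I₂) (F := G ∪ F₁ ∪ F₂)
    (hdisj.mono inter_subset_left inter_subset_left) (by rw [hun]; exact hI₁i.subset hI₂)
    (by rw [hun]; exact hI₂i) ((hGf.union hF₁).union hF₂) ?_
  apply subset_antisymm
  · exact union_subset (M'.closure_subset_ground _) (hE' ▸ N'.closure_subset_ground _)
  · intro e he
    rw [hM.ground] at he
    have : e ∈ M.closure JM ∪ N.closure JN := by
      rw [hcl]
      exact he.1
    rcases this with h | h
    · refine Or.inl (M'.closure_subset_closure ?_ (hc₁ ⟨h, he.2⟩))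
      rintro z (hz | hz)
      · rcases hmem z (Or.inl hz) with h' | h'
        · exact Or.inl ⟨hz, h'⟩
        · exact Or.inr (Or.inl (Or.inl h'))
      · exact Or.inr (Or.inl (Or.inr hz))
    · refine Or.inr (N'.closure_subset_closure ?_ (hc₂ ⟨h, he.2⟩))
      rintro z (hz | hz)
      · rcases hmem z (Or.inr hz) with h' | h'
        · exact Or.inl ⟨hz, h'⟩
        · exact Or.inr (Or.inl (Or.inl h'))
      · exact Or.inr (Or.inr hz)

end Vale.Agent.Lib.P068
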