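import Vale.Agent.Lib.P068.Perturb

/-!
# Almost uniform matroids and strongly maximal common independent sets
-/

namespace Vale.Agent.Lib.P068

open Set Matroid

variable {α : Type*} {M N : Matroid α} {J J' : Set α}

theorem si_of_almostUniform (hE : M.E = N.E) (hN : AlmostUniform N) :
    SatisfiesIntersection M N := by
  obtain ⟨B, hB⟩ := M.exists_isBase
  have hBE : B ⊆ N.E := hE ▸ hB.subset_ground
  rcases hN B hBE with ⟨F, hF, hi⟩ | ⟨F, hF, hcl⟩
  · refine si_of_finite_defect hE (JM := B \ F) (JN := ∅) (F := F) (disjoint_empty _)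
      (by simpa using hB.indep.subset sdiff_subset) (by simpa using hi) hF ?_
    have h1 : M.closure (B \ F ∪ F) = M.E :=
      hB.closure_of_superset (fun z hz => by
        by_cases hzF : z ∈ F
        · exact Or.inr hzF
        · exact Or.inl ⟨hz, hzF⟩)
    rw [h1]
    exact union_eq_self_of_subset_right (hE ▸ N.closure_subset_ground _)
  · obtain ⟨J₀, hJ₀⟩ := N.exists_isBasis B hBE
    refine si_of_finite_defect hE (JM := ∅) (JN := J₀) (F := F) (empty_disjoint _)
      (by simpa using hB.indep.subset hJ₀.subset) (by simpa using hJ₀.indep) hF ?_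
    rw [closure_union_congr_left hJ₀.closure_eq_closure, hcl, ← hE]
    exact union_eq_self_of_subset_left (M.closure_subset_ground _)

lemma exc_of_finite (h1 : (J' \ J).Finite) (h2 : (J \ J').Finite) {n : ℕ}
    (hn : (J' \ J).ncard = (J \ J').ncard + n) : Exc J J' n := by
  refine ⟨(J' \ J) ∪ (J \ J'), h1.union h2, ?_, ?_⟩
  · ext z
    simp only [mem_sdiff, mem_union]
    tauto
  · have e1 : J' ∩ ((J' \ J) ∪ (J \ J')) = J' \ J := by
      ext z
      simp only [mem_sdiff, mem_union, mem_inter_iff]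
      tauto
    have e2 : J ∩ ((J' \ J) ∪ (J \ J')) = J \ J' := by
      ext z
      simp only [mem_sdiff, mem_union, mem_inter_iff]
      tauto
    rw [e1, e2, hn]

lemma finite_of_exc {n : ℕ} (h : Exc J J' n) :
    (J' \ J).Finite ∧ (J \ J').Finite ∧ (J' \ J).ncard = (J \ J').ncard + n := by
  obtain ⟨W, hW, hd, hc⟩ := h
  have hmem : ∀ z, z ∉ W → (z ∈ J' ↔ z ∈ J) := by
    intro z hz
    have := Set.ext_iff.mp hd z
    simp only [mem_sdiff, hz, not_false_eq_true, and_true] at this
    exact this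
  have s1 : J' \ J ⊆ W := by
    intro z hz
    by_contra hzW
    exact hz.2 ((hmem z hzW).1 hz.1)
  have s2 : J \ J' ⊆ W := by
    intro z hz
    by_contra hzW
    exact hz.2 ((hmem z hzW).2 hz.1)
  have f1 := hW.subset s1
  have f2 := hW.subset s2
  refine ⟨f1, f2, ?_⟩
  have e1 : J' ∩ W = (J' ∩ J ∩ W) ∪ (J' \ J) := by
    ext z
    simp only [mem_sdiff, mem_union, mem_inter_iff]
    constructor
    · rintro ⟨h1, h2⟩
      by_cases hzJ : z ∈ J
      · exact Or.inl ⟨⟨h1, hzJ⟩, h2⟩
      · exact Or.inr ⟨h1, hzJ⟩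
    · rintro (⟨⟨h1, _⟩, h2⟩ | h)
      · exact ⟨h1, h2⟩
      · exact ⟨h.1, s1 h⟩
  have e2 : J ∩ W = (J' ∩ J ∩ W) ∪ (J \ J') := by
    ext z
    simp only [mem_sdiff, mem_union, mem_inter_iff]
    constructor
    · rintro ⟨h1, h2⟩
      by_cases hzJ : z ∈ J'
      · exact Or.inl ⟨⟨hzJ, h1⟩, h2⟩
      · exact Or.inr ⟨h1, hzJ⟩
    · rintro (⟨⟨_, h1⟩, h2⟩ | h)
      · exact ⟨h1, h2⟩
      · exact ⟨h.1, s2 h⟩
  have c1 : (J' ∩ W).ncard = (J' ∩ J ∩ W).ncard + (J' \ J).ncard := by
    rw [e1]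
    apply ncard_union_eq _ (hW.inter_of_right _) f1
    rw [Set.disjoint_left]
    rintro z ⟨⟨_, h1⟩, _⟩ h2
    exact h2.2 h1
  have c2 : (J ∩ W).ncard = (J' ∩ J ∩ W).ncard + (J \ J').ncard := by
    rw [e2]
    apply ncard_union_eq _ (hW.inter_of_right _) f2
    rw [Set.disjoint_left]
    rintro z ⟨⟨h1, _⟩, _⟩ h2
    exact h2.2 h1
  omega

/-- A certificate shows that its common independent set is strongly maximal. -/
theorem stronglyMaximal_of_certificate {JM JN : Set α} (hdisj : Disjoint JM JN)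
    (hM : M.Indep (JM ∪ JN)) (hN : N.Indep (JM ∪ JN)) (hE : M.E = N.E)
    (hcov : M.closure JM ∪ N.closure JN = M.E) : StronglyMaximal M N (JM ∪ JN) := by
  refine ⟨hM, hN, ?_⟩
  intro J' hM' hN' h1 h2
  by_contra hlt
  push Not at hlt
  obtain ⟨n, hn⟩ := Nat.exists_eq_add_of_lt hlt
  have hexc : Exc (JM ∪ JN) J' (n + 1) := exc_of_finite h1 h2 (by omega)
  have hJMX : JM ⊆ M.closure JM := fun z hz =>
    M.mem_closure_of_mem' hz (hM.subset_ground (Or.inl hz))
  have hJNX : ∀ z ∈ JN, z ∉ M.closure JM := by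
    intro z hz hzc
    refine hM.notMem_closure_sdiff_of_mem (Or.inr hz) (M.closure_subset_closure ?_ hzc)
    intro w hw
    refine ⟨Or.inl hw, ?_⟩
    rintro rfl
    exact (Set.disjoint_left.mp hdisj) hw hz
  have := exc_bound (M := M) (N := N) (J := JM ∪ JN) (X := M.closure JM) (F₁ := ∅) (F₂ := ∅)
    finite_empty finite_empty ?_ ?_ hM' hN' hexc
  · simp at this
  · rw [union_empty]
    refine M.closure_subset_closure ?_
    intro z hz
    exact ⟨Or.inl hz, hJMX hz⟩
  · rw [union_empty]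
    intro e he
    have heM : e ∈ M.closure JM ∪ N.closure JN := by
      rw [hcov, hE]
      exact he.1
    rcases heM with h | h
    · exact absurd h he.2
    · refine N.closure_subset_closure ?_ h
      intro z hz
      exact ⟨Or.inr hz, hJNX z hz⟩

theorem si_iff_exists_stronglyMaximal (hE : M.E = N.E) :
    SatisfiesIntersection M N ↔ ∃ J, StronglyMaximal M N J := by
  constructor
  · rintro ⟨JM, JN, hdisj, hM, hN, hcov⟩
    exact ⟨_, stronglyMaximal_of_certificate hdisj hM hN hE hcov⟩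
  · rintro ⟨J, hM, hN, hmax⟩
    apply certificate hE hM hN
    intro s hsE hs k hk
    obtain ⟨J', hM', hN', hexc⟩ := augment k J hM hN s hsE hs hk
    obtain ⟨f1, f2, hc⟩ := finite_of_exc hexc
    have := hmax J' hM' hN' f1 f2
    omega

end Vale.Agent.Lib.P068
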