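import Vale.Agent.Lib.P068.Minors

/-!
# Invariance under finite-rank perturbations
-/

namespace Vale.Agent.Lib.P068

open Set Matroid

variable {α : Type*} {M N M' N' : Matroid α} {A : Set α}

theorem si_symm (hE : M.E = N.E) (h : SatisfiesIntersection M N) : SatisfiesIntersection N M := by
  obtain ⟨JM, JN, hdisj, hiM, hiN, hcl⟩ := h
  exact ⟨JN, JM, hdisj.symm, by rwa [union_comm], by rwa [union_comm], by
    rw [union_comm, hcl, hE]⟩

lemma finite_inter_closure {J F : Set α} (hJ : M.Indep J) (hF : F.Finite) :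
    (J ∩ M.closure F).Finite := by
  have h := finite_sdiff_of_subset_closure (M := M) (I := J ∩ M.closure F) (I₀ := ∅) (B := F)
    (hJ.subset inter_subset_left) (empty_subset _) hF (by rw [empty_union]; exact inter_subset_right)
  simpa using h

theorem si_transfer (hE' : M'.E = N'.E)
    (h1 : ClosureLe M M') (h2 : ClosureLe M' M) (h3 : ClosureLe N N') (h4 : ClosureLe N' N)
    (hc : ∃ F : Set α, F.Finite ∧ M.E \ M'.E ⊆ M.closure F ∪ N.closure F)
    (hc' : ∃ F : Set α, F.Finite ∧ M'.E \ M.E ⊆ M'.closure F ∪ N'.closure F)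
    (h : SatisfiesIntersection M N) : SatisfiesIntersection M' N' := by
  obtain ⟨JM, JN, hdisj, hiM, hiN, hcl⟩ := h
  set J := JM ∪ JN with hJ
  -- the part of `J` outside the new ground set is finite
  obtain ⟨F₀, hF₀, hc₀⟩ := hc
  have hG₀ : (J \ M'.E).Finite := by
    refine ((finite_inter_closure hiM hF₀).union (finite_inter_closure hiN hF₀)).subset ?_
    intro z hz
    rcases hc₀ ⟨hiM.subset_ground hz.1, hz.2⟩ with h | h
    · exact Or.inl ⟨hz.1, h⟩
    · exact Or.inr ⟨hz.1, h⟩
  -- first thinning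
  obtain ⟨I₁, hI₁⟩ := M'.exists_isBasis' J
  obtain ⟨Fa, hFa, hca⟩ := h2 I₁
  have hI₁f : (J \ I₁).Finite := by
    refine finite_sdiff_of_subset_closure hiM hI₁.subset (hFa.union hG₀) ?_
    intro z hz
    by_cases hzE : z ∈ M'.E
    · have h5 : z ∈ M'.closure I₁ := by
        rw [hI₁.closure_eq_closure]
        exact M'.mem_closure_of_mem' hz hzE
      refine M.closure_subset_closure ?_ (hca ⟨h5, hiM.subset_ground hz⟩)
      exact union_subset_union_right _ subset_union_left
    · exact M.mem_closure_of_mem' (Or.inr (Or.inr ⟨hz, hzE⟩)) (hiM.subset_ground hz)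
  -- second thinning
  obtain ⟨I₂, hI₂⟩ := N'.exists_isBasis' I₁
  obtain ⟨Fb, hFb, hcb⟩ := h4 I₂
  have hiN₁ : N.Indep I₁ := hiN.subset hI₁.subset
  have hI₂f : (I₁ \ I₂).Finite := by
    refine finite_sdiff_of_subset_closure hiN₁ hI₂.subset hFb ?_
    intro z hz
    have h5 : z ∈ N'.closure I₂ := by
      rw [hI₂.closure_eq_closure]
      exact N'.mem_closure_of_mem' hz (hE' ▸ hI₁.indep.subset_ground hz)
    exact hcb ⟨h5, hiN₁.subset_ground hz⟩
  obtain ⟨F₁, hF₁, hc₁⟩ := h1 JM
  obtain ⟨F₂, hF₂, hc₂⟩ := h3 JN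
  obtain ⟨F₃, hF₃, hc₃⟩ := hc'
  have hun : (JM ∩ I₂) ∪ (JN ∩ I₂) = I₂ := by
    rw [← union_inter_distrib_right]
    exact inter_eq_self_of_subset_right (hI₂.subset.trans hI₁.subset)
  set G := (J \ I₁) ∪ (I₁ \ I₂) with hG
  have hGf : G.Finite := hI₁f.union hI₂f
  have hmem : ∀ z ∈ J, z ∈ I₂ ∨ z ∈ G := by
    intro z hz
    by_cases h1 : z ∈ I₁
    · by_cases h2 : z ∈ I₂
      · exact Or.inl h2
      · exact Or.inr (Or.inr ⟨h1, h2⟩)
    · exact Or.inr (Or.inl ⟨hz, h1⟩)
  refine si_of_finite_defect hE' (JM := JM ∩ I₂) (JN := JN ∩ I₂) (F := G ∪ F₁ ∪ F₂ ∪ F₃)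
    (hdisj.mono inter_subset_left inter_subset_left) (by rw [hun]; exact hI₁.indep.subset hI₂.subset)
    (by rw [hun]; exact hI₂.indep) (((hGf.union hF₁).union hF₂).union hF₃) ?_
  apply subset_antisymm
  · exact union_subset (M'.closure_subset_ground _) (hE' ▸ N'.closure_subset_ground _)
  · intro e he
    by_cases heE : e ∈ M.E
    · have : e ∈ M.closure JM ∪ N.closure JN := by
        rw [hcl]
        exact heE
      rcases this with h | h
      · refine Or.inl (M'.closure_subset_closure ?_ (hc₁ ⟨h, he⟩))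
        rintro z (hz | hz)
        · rcases hmem z (Or.inl hz) with h' | h'
          · exact Or.inl ⟨hz, h'⟩
          · exact Or.inr (Or.inl (Or.inl (Or.inl h')))
        · exact Or.inr (Or.inl (Or.inl (Or.inr hz)))
      · refine Or.inr (N'.closure_subset_closure ?_ (hc₂ ⟨h, hE' ▸ he⟩))
        rintro z (hz | hz)
        · rcases hmem z (Or.inr hz) with h' | h'
          · exact Or.inl ⟨hz, h'⟩
          · exact Or.inr (Or.inl (Or.inl (Or.inl h')))
        · exact Or.inr (Or.inl (Or.inr hz))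
    · rcases hc₃ ⟨he, heE⟩ with h | h
      · exact Or.inl (M'.closure_subset_closure (fun z hz => Or.inr (Or.inr hz)) h)
      · exact Or.inr (N'.closure_subset_closure (fun z hz => Or.inr (Or.inr hz)) h)

theorem si_of_rank (hE : M.E = N.E)
    (h : M.RankFinite ∨ M✶.RankFinite ∨ N.RankFinite ∨ N✶.RankFinite) :
    SatisfiesIntersection M N := by
  rcases h with h | h | h | h
  · exact si_symm hE.symm (si_of_rankFinite hE.symm h)
  · exact si_symm hE.symm (si_of_dual_rankFinite hE.symm h)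
  · exact si_of_rankFinite hE h
  · exact si_of_dual_rankFinite hE h

lemma cover_of_isRkFinite (hA : N.IsRkFinite A) (hE : M.E = N.E) :
    ∃ F : Set α, F.Finite ∧ A ∩ M.E ⊆ M.closure F ∪ N.closure F := by
  obtain ⟨B, hfin, hB⟩ := exists_finite_closure_eq hA
  refine ⟨B, hfin, fun z hz => Or.inr ?_⟩
  rw [hB]
  exact N.mem_closure_of_mem' hz.1 (hE ▸ hz.2)

theorem si_of_delete (hE : M.E = N.E) (hA : N.IsRkFinite A)
    (h : SatisfiesIntersection (M ＼ A) (N ＼ A)) : SatisfiesIntersection M N :=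
  si_of_lifts hE (lifts_delete M A) (lifts_delete N A) (cover_of_isRkFinite hA hE) h

theorem si_iff_minors (hE : M.E = N.E) (hM : M.IsRkFinite A) (hN : N.IsRkFinite A) :
    (SatisfiesIntersection M N ↔ SatisfiesIntersection (M ＼ A) (N ＼ A)) ∧
    (SatisfiesIntersection M N ↔ SatisfiesIntersection (M ／ A) (N ／ A)) ∧
    (SatisfiesIntersection M N ↔ SatisfiesIntersection (M ／ A) (N ＼ A)) := by
  have hc := cover_of_isRkFinite hN hE
  refine ⟨⟨?_, ?_⟩, ⟨?_, ?_⟩, ⟨?_, ?_⟩⟩
  · exact si_of_drops hE (drops_delete hM) (drops_delete hN)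
  · exact si_of_lifts hE (lifts_delete M A) (lifts_delete N A) hc
  · exact si_of_drops hE (drops_contract hM) (drops_contract hN)
  · exact si_of_lifts hE (lifts_contract hM) (lifts_contract hN) hc
  · exact si_of_drops hE (drops_contract hM) (drops_delete hN)
  · exact si_of_lifts hE (lifts_contract hM) (lifts_delete N A) hc

theorem si_iff_perturb (hE : M.E = N.E) (hM' : M'.E = M.E) (hN' : N'.E = M.E)
    (h1 : ClosureLe M M') (h2 : ClosureLe M' M) (h3 : ClosureLe N N') (h4 : ClosureLe N' N) :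
    SatisfiesIntersection M N ↔ SatisfiesIntersection M' N' := by
  constructor
  · refine si_transfer (hM'.trans hN'.symm) h1 h2 h3 h4 ⟨∅, finite_empty, ?_⟩ ⟨∅, finite_empty, ?_⟩
    · rw [hM', sdiff_self]
      exact empty_subset _
    · rw [hM', sdiff_self]
      exact empty_subset _
  · refine si_transfer hE h2 h1 h4 h3 ⟨∅, finite_empty, ?_⟩ ⟨∅, finite_empty, ?_⟩
    · rw [hM', sdiff_self]
      exact empty_subset _
    · rw [hM', sdiff_self]
      exact empty_subset _

end Vale.Agent.Lib.P068
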