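import Mathlib

/-!
# Augmenting walks for two (possibly infinite) matroids

`Arc N J x y` : `x` lies outside `J`, is spanned by `J` in `N`, and `y` lies on its
fundamental circuit.  `AW M N J x l` : from `x` one can reach an element not spanned by `J`
in `N` along an alternating walk with `l` double steps.
-/

namespace Vale.Agent.Lib.P068

open Set Matroid

variable {α : Type*} {M N : Matroid α} {J I K : Set α} {x y s : α}

/-- `y` lies on the fundamental circuit of `x` with respect to `J`. -/
def Arc (N : Matroid α) (J : Set α) (x y : α) : Prop :=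
  y ∈ J ∧ x ∉ J ∧ x ∈ N.closure J ∧ x ∉ N.closure (J \ {y})

/-- alternating walks ending outside the `N`-closure of `J`. -/
inductive AW (M N : Matroid α) (J : Set α) : α → ℕ → Prop
  | base {x : α} : x ∈ N.E → x ∉ N.closure J → AW M N J x 0
  | step {x y x' : α} {l : ℕ} : Arc N J x y → Arc M J x' y → AW M N J x' l → AW M N J x (l + 1)

lemma AW.notMem (h : ∃ l, AW M N J x l) : x ∉ J := by
  obtain ⟨l, h⟩ := h
  cases h with
  | base hE hx => exact fun hxJ => hx (N.mem_closure_of_mem' hxJ hE)
  | step h1 _ _ => exact h1.2.1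

/-- If `x` is spanned by the independent set `I` but not by `K ⊆ I`, some element of `I \ K`
lies on the fundamental circuit of `x`. -/
lemma exists_arc (hI : M.Indep I) (hK : K ⊆ I) (hx : x ∈ M.closure I) (hxK : x ∉ M.closure K) :
    ∃ y ∈ I \ K, x ∉ M.closure (I \ {y}) := by
  by_contra hcon
  push Not at hcon
  rcases (I \ K).eq_empty_or_nonempty with he | hne
  · have : I = K := subset_antisymm (sdiff_eq_empty.mp he) hK
    exact hxK (this ▸ hx)
  · have hK' : K = ⋂ y ∈ I \ K, I \ {y} := by
      ext z
      simp only [mem_iInter, mem_sdiff, mem_singleton_iff]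
      constructor
      · intro hz y hy
        exact ⟨hK hz, fun h => hy.2 (h ▸ hz)⟩
      · intro h
        by_contra hz
        obtain ⟨y, hy⟩ := hne
        have hzI : z ∈ I := (h y hy).1
        exact (h z ⟨hzI, hz⟩).2 rfl
    have hind : M.Indep (⋃ y ∈ I \ K, I \ {y}) := by
      refine hI.subset ?_
      intro z hz
      simp only [mem_iUnion] at hz
      obtain ⟨y, _, hz⟩ := hz
      exact hz.1
    have := closure_biInter_eq_biInter_closure_of_biUnion_indep hne hind
    rw [← hK'] at this
    apply hxK
    rw [this]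
    simp only [mem_iInter]
    exact fun y hy => hcon y hy

/-- No augmenting walk: the intersection certificate. -/
theorem certificate (hE : M.E = N.E) (hJM : M.Indep J) (hJN : N.Indep J)
    (h : ∀ s ∈ M.E, s ∉ M.closure J → ∀ k, ¬ AW M N J s k) :
    ∃ JM JN : Set α, Disjoint JM JN ∧ M.Indep (JM ∪ JN) ∧ N.Indep (JM ∪ JN) ∧
      M.closure JM ∪ N.closure JN = M.E := by
  classical
  set JM : Set α := {y | y ∈ J ∧ ∃ x' k, Arc M J x' y ∧ AW M N J x' k} with hJMdef
  have hsub : JM ⊆ J := fun y hy => hy.1
  have hun : JM ∪ (J \ JM) = J := union_sdiff_cancel hsub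
  refine ⟨JM, J \ JM, disjoint_sdiff_right, by rwa [hun], by rwa [hun], ?_⟩
  apply subset_antisymm
  · exact union_subset (M.closure_subset_ground _) (hE ▸ N.closure_subset_ground _)
  · intro e he
    by_cases heJ : e ∈ J
    · by_cases heM : e ∈ JM
      · exact Or.inl (M.mem_closure_of_mem' heM he)
      · exact Or.inr (N.mem_closure_of_mem' ⟨heJ, heM⟩ (hE ▸ he))
    · by_cases hR : ∃ k, AW M N J e k
      · left
        obtain ⟨k, hk⟩ := hR
        have hcl : e ∈ M.closure J := by
          by_contra hcl
          exact h e he hcl k hk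
        by_contra hnot
        obtain ⟨y, hy, hxy⟩ := exists_arc hJM hsub hcl hnot
        exact hy.2 ⟨hy.1, e, k, ⟨hy.1, heJ, hcl, hxy⟩, hk⟩
      · right
        have hcl : e ∈ N.closure J := by
          by_contra hcl
          exact hR ⟨0, AW.base (hE ▸ he) hcl⟩
        by_contra hnot
        obtain ⟨y, hy, hxy⟩ := exists_arc hJN sdiff_subset hcl hnot
        have hyM : y ∈ JM := by
          by_contra hyM
          exact hy.2 ⟨hy.1, hyM⟩
        obtain ⟨_, x', k, harc, hk⟩ := hyM
        exact hR ⟨k + 1, AW.step ⟨hy.1, heJ, hcl, hxy⟩ harc hk⟩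

end Vale.Agent.Lib.P068
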